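import Vale.Agent.P181.GP.Spec

/-!
P181, graph power map theorem: row ALG.
-/

set_option autoImplicit false

namespace Vale.Agent.P181.GP

open Finset MvPolynomial

/-- A nonzero value is attained on monomials. -/
lemma exists_monomials {a : ℕ} (F : MultilinearMap ℂ (fun _ : Fin a => Rg a) ℂ)
    (v : Fin a → Rg a) (h : F v ≠ 0) :
    ∃ m : Fin a → (Fin a × Bool →₀ ℕ), (∀ t, m t ∈ (v t).support) ∧
      F (fun t => monomial (m t) 1) ≠ 0 := by
  classical
  by_contra hno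
  push Not at hno
  apply h
  have h1 : v = fun t => ∑ m ∈ (v t).support, coeff m (v t) • (monomial m (1 : ℂ)) := by
    funext t
    conv_lhs => rw [(v t).as_sum]
    apply Finset.sum_congr rfl
    intro m _
    rw [smul_monomial, smul_eq_mul, mul_one]
  rw [h1, MultilinearMap.map_sum_finset]
  apply Finset.sum_eq_zero
  intro m hm
  rw [Fintype.mem_piFinset] at hm
  rw [F.map_smul_univ (fun t => coeff (m t) (v t)) (fun t => monomial (m t) (1 : ℂ)),
    hno m hm, smul_zero]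

/-- Divisibility by letters. -/
lemma support_of_dvd {a : ℕ} {J : Finset (Fin a)} {p : Rg a}
    (h : (∏ j ∈ J, (X (j, true) : Rg a)) ∣ p) {m : Fin a × Bool →₀ ℕ} (hm : m ∈ p.support)
    {j : Fin a} (hj : j ∈ J) : m (j, true) ≠ 0 := by
  classical
  have h0 : (X (j, true) : Rg a) ∣ ∏ j ∈ J, (X (j, true) : Rg a) :=
    Finset.dvd_prod_of_mem (fun j => (X (j, true) : Rg a)) hj
  have h1 : (X (j, true) : Rg a) ∣ p := h0.trans h
  obtain ⟨g, rfl⟩ := h1
  rw [mem_support_iff, coeff_X_mul'] at hm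
  by_contra h0
  apply hm
  rw [if_neg]
  intro h2
  exact (Finsupp.mem_support_iff.1 h2) h0

/-- Several steps. -/
lemma iterate (hSTEP : RowSTEP) {a s κ Q H r : ℕ} (z : Bool)
    (F : MultilinearMap ℂ (fun _ : Fin a => Rg a) ℂ)
    (hsupp : ∀ m : Fin a → (Fin a × Bool →₀ ℕ), F (fun t => monomial (m t) 1) ≠ 0 →
      (∀ t, (univ.filter (fun i => m t (i, z) ≠ 0)).card ≤ s) ∧ ∀ i, ∑ t, m t (i, z) ≤ Q)
    (h2 : κ + 1 ≤ r) (h3 : (Q / r) * ((s - 1) * (2 * κ + 1)) ≤ H) :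
    ∀ (n c : ℕ), s * (r + H + κ) ≤ c + κ → ∀ R : Fin a → Rg a,
      (∀ ξ : Fin n → Rg a, (∀ j, ξ j ∈ LT a z) → ∀ P : Fin a → Fin a → ℕ,
        (∀ t, ∑ i, P t i = c) → (∀ t, 1 ≤ P t t) →
          F (fun t => R t * ((∏ j, ξ j) ^ κ * ∏ i, X (i, z) ^ (P t i))) = 0) →
      ∀ E : Fin a → Fin a → ℕ, (∀ t, ∑ i, E t i = c + n * κ) → (∀ t, 1 ≤ E t t) →
        F (fun t => R t * ∏ i, X (i, z) ^ (E t i)) = 0 := by
  intro n
  induction n with
  | zero =>
    intro c _ R hR E hE1 hE2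
    have h4 := hR (fun j => j.elim0) (fun j => j.elim0) E (by
      intro t
      rw [hE1 t]
      ring) hE2
    simpa using h4
  | succ n ih =>
    intro c hc R hR E hE1 hE2
    apply ih (c + κ) (by omega) R _ E (by
      intro t
      rw [hE1 t]
      ring) hE2
    intro ξ hξ E' hE'1 hE'2
    have h5 := hSTEP a s c κ Q H r z F hsupp (fun t => R t * (∏ j, ξ j) ^ κ) (by
      intro ξ0 hξ0 P hP1 hP2
      have h6 := hR (Fin.cons ξ0 ξ) (by
        intro j
        refine Fin.cases ?_ (fun j => ?_) j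
        · exact hξ0
        · exact hξ j) P hP1 hP2
      rw [← h6]
      congr 1
      funext t
      rw [Fin.prod_univ_succ]
      simp only [Fin.cons_zero, Fin.cons_succ]
      rw [mul_pow]
      ring) hc h2 h3 E' hE'1 hE'2
    rw [← h5]
    congr 1
    funext t
    ring

/-- Numbers. -/
lemma numALG {s q d κ Q c : ℕ} (hs : 1 ≤ s) (hq : 1 ≤ q) (hd : 18 * s ^ 5 * q ^ 2 ≤ d)
    (hκ : κ = s * q - 1 ∨ κ = q) (hQ : Q ≤ q * (s * d + 1)) (hc : d ≤ c) :
    s * (d / (3 * s) + (Q / (d / (3 * s))) * ((s - 1) * (2 * κ + 1)) + κ) ≤ c + κ ∧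
      κ + 1 ≤ d / (3 * s) := by
  obtain ⟨r, hr⟩ : ∃ r, r = d / (3 * s) := ⟨_, rfl⟩
  rw [← hr]
  have hr1 : 3 * s * r ≤ d := by
    rw [hr]
    exact Nat.mul_div_le _ _
  have hr2 : d < 3 * s * (r + 1) := by
    rw [hr]
    exact Nat.lt_mul_div_succ _ (by omega)
  obtain ⟨D, hD⟩ : ∃ D, D = s ^ 4 * q ^ 2 := ⟨_, rfl⟩
  have hdD : 18 * (s * D) ≤ d := by
    refine le_trans (le_of_eq ?_) hd
    rw [hD]
    ring
  have hsq : 1 ≤ s * q := Nat.mul_pos hs hq
  have hDsq : s * q ≤ D := by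
    rw [hD]
    calc s * q = s ^ 1 * q ^ 1 := by rw [pow_one, pow_one]
      _ ≤ s ^ 4 * q ^ 2 := Nat.mul_le_mul (Nat.pow_le_pow_right hs (by norm_num))
          (Nat.pow_le_pow_right hq (by norm_num))
  have hrD : 6 * D ≤ r := by
    rw [hr, Nat.le_div_iff_mul_le (by omega)]
    calc 6 * D * (3 * s) = 18 * (s * D) := by ring
      _ ≤ d := hdD
  have hqs : q ≤ s * q := Nat.le_mul_of_pos_left q hs
  have hκ1 : κ ≤ s * q := by
    rcases hκ with h | h
    · omega
    · omega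
  refine ⟨?_, by omega⟩
  have hQr : Q / r ≤ 4 * (s ^ 2 * q) := by
    apply Nat.div_le_of_le_mul
    have h1 : s * d + 1 ≤ 3 * (s ^ 2) * (r + 1) := by
      have h2 : s * (d + 1) ≤ s * (3 * s * (r + 1)) := Nat.mul_le_mul_left s hr2
      calc s * d + 1 ≤ s * d + s := by omega
        _ = s * (d + 1) := by ring
        _ ≤ _ := h2
        _ = 3 * (s ^ 2) * (r + 1) := by ring
    have h3 : 3 * (r + 1) ≤ 4 * r := by omega
    calc Q ≤ q * (s * d + 1) := hQ
      _ ≤ q * (3 * (s ^ 2) * (r + 1)) := Nat.mul_le_mul_left q h1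
      _ = (q * s ^ 2) * (3 * (r + 1)) := by ring
      _ ≤ (q * s ^ 2) * (4 * r) := Nat.mul_le_mul_left _ h3
      _ = r * (4 * (s ^ 2 * q)) := by ring
  have hss : (s - 1) * (2 * κ + 1) ≤ 2 * (s ^ 2 * q) := by
    rcases Nat.lt_or_ge s 2 with h | h
    · have : s - 1 = 0 := by omega
      rw [this, zero_mul]
      exact Nat.zero_le _
    · have h4 : 2 * κ + 1 ≤ 2 * (s * q) := by
        rcases hκ with h5 | h5
        · omega
        · have h6 : 2 * q ≤ s * q := Nat.mul_le_mul_right q h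
          omega
      calc (s - 1) * (2 * κ + 1) ≤ s * (2 * (s * q)) := Nat.mul_le_mul (by omega) h4
        _ = _ := by ring
  have hH : (Q / r) * ((s - 1) * (2 * κ + 1)) ≤ 8 * D := by
    refine (Nat.mul_le_mul hQr hss).trans (le_of_eq ?_)
    rw [hD]
    ring
  have h7 : s * ((Q / r) * ((s - 1) * (2 * κ + 1))) ≤ 8 * (s * D) := by
    refine (Nat.mul_le_mul_left s hH).trans (le_of_eq ?_)
    ring
  have h8 : s * κ ≤ s * D := Nat.mul_le_mul_left s (hκ1.trans hDsq)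
  have h9 : s * (r + (Q / r) * ((s - 1) * (2 * κ + 1)) + κ) =
      s * r + s * ((Q / r) * ((s - 1) * (2 * κ + 1))) + s * κ := by ring
  rw [h9]
  have h10 : 3 * (s * r) ≤ d := by
    refine le_trans (le_of_eq ?_) hr1
    ring
  omega

/-- Products of letters. -/
lemma prod_mem_LT {a : ℕ} (z : Bool) (P : Fin a → ℕ) {d : ℕ} (hP : ∑ i, P i = d) :
    (∏ i, (X (i, z) : Rg a) ^ (P i)) ∈ LT a z ^ d := by
  classical
  subst hP
  have main : ∀ T : Finset (Fin a), (∏ i ∈ T, (X (i, z) : Rg a) ^ (P i)) ∈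
      LT a z ^ (∑ i ∈ T, P i) := by
    intro T
    induction T using Finset.induction_on with
    | empty =>
      rw [Finset.prod_empty, Finset.sum_empty, pow_zero]
      exact Submodule.one_le.1 le_rfl
    | insert i T hi ih =>
      rw [Finset.prod_insert hi, Finset.sum_insert hi, pow_add]
      refine Submodule.mul_mem_mul ?_ ih
      have h1 : (X (i, z) : Rg a) ∈ LT a z := Submodule.subset_span ⟨i, rfl⟩
      exact Submodule.pow_mem_pow _ h1 _
  exact main univ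

lemma prod_mem_LT' {a n : ℕ} (z : Bool) (ξ : Fin n → Rg a) (h : ∀ j, ξ j ∈ LT a z) :
    (∏ j, ξ j) ∈ LT a z ^ n := by
  induction n with
  | zero =>
    rw [Finset.univ_eq_empty, Finset.prod_empty, pow_zero]
    exact Submodule.one_le.1 le_rfl
  | succ n ih =>
    rw [Fin.prod_univ_succ, pow_succ']
    exact Submodule.mul_mem_mul (h 0) (ih (fun j => ξ j.succ) (fun j => h j.succ))

/-- Bidegrees. -/
lemma bideg_mul {a : ℕ} {p p' : Rg a} {i j i' j' : ℕ}
    (h : p ∈ LT a true ^ i * LT a false ^ j) (h' : p' ∈ LT a true ^ i' * LT a false ^ j') :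
    p * p' ∈ LT a true ^ (i + i') * LT a false ^ (j + j') := by
  have h1 := Submodule.mul_mem_mul h h'
  rwa [mul_mul_mul_comm, ← pow_add, ← pow_add] at h1

lemma bideg_pow {a : ℕ} {p : Rg a} {i j : ℕ} (h : p ∈ LT a true ^ i * LT a false ^ j) (n : ℕ) :
    p ^ n ∈ LT a true ^ (n * i) * LT a false ^ (n * j) := by
  induction n with
  | zero =>
    rw [pow_zero, zero_mul, zero_mul, pow_zero, pow_zero, one_mul]
    exact Submodule.one_le.1 le_rfl
  | succ n ih =>
    rw [pow_succ, Nat.succ_mul, Nat.succ_mul]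
    exact bideg_mul ih h

lemma bideg_prod {a j : ℕ} {d : ℕ} (p : Fin j → Rg a)
    (h : ∀ i, p i ∈ LT a true ^ d * LT a false ^ d) :
    (∏ i, p i) ∈ LT a true ^ (j * d) * LT a false ^ (j * d) := by
  induction j with
  | zero =>
    rw [Finset.univ_eq_empty, Finset.prod_empty, zero_mul, pow_zero, pow_zero, one_mul]
    exact Submodule.one_le.1 le_rfl
  | succ j ih =>
    rw [Fin.prod_univ_succ, Nat.succ_mul, add_comm (j * d) d]
    exact bideg_mul (h 0) (ih (fun i => p i.succ) (fun i => h i.succ))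

/-- Step 0. -/
lemma step0 (hKEY : RowKEY) {a s q d N1 N2 : ℕ} (hs : 1 ≤ s) (hq : 1 ≤ q)
    (F : MultilinearMap ℂ (fun _ : Fin a => Rg a) ℂ)
    (hsymm : ∀ (σ : Equiv.Perm (Fin a)) (v : Fin a → Rg a), F (fun i => v (σ i)) = F v)
    (hsupp : ∀ m : Fin a → (Fin a × Bool →₀ ℕ), F (fun t => monomial (m t) 1) ≠ 0 →
      (∀ t, (csupp (m t)).card ≤ s) ∧ (∀ i, ∑ t, m t (i, true) ≤ N1) ∧
        ∀ i, ∑ t, m t (i, false) ≤ N2)
    (hF : ∀ f ∈ LT a true ^ (s * d) * LT a false ^ (s * d + 1), F (fun _ => f ^ q) = 0)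
    (η : Rg a) (hη : η ∈ LT a false) (φ : Rg a) (hφ : φ ∈ LT a true ^ d * LT a false ^ d)
    (h : Fin a → Rg a) (hh : ∀ t, h t ∈ LT a true ^ d * LT a false ^ d)
    (hdv : ∀ t, (X (t, true) : Rg a) ∣ h t) :
    F (fun t => η ^ q * (h t * φ ^ (s * q - 1))) = 0 := by
  classical
  have hη' : η ∈ LT a true ^ 0 * LT a false ^ 1 := by
    rw [pow_zero, one_mul, pow_one]
    exact hη
  refine hKEY (Rg a) a s q hs hq (LT a true ^ (s * d) * LT a false ^ (s * d + 1)) F hsymm hF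
    φ η h ?_ ?_
  · intro j hj w
    have h2 := bideg_mul hη' (bideg_mul (bideg_prod (fun i : Fin j => h (w i))
      (fun i => hh (w i))) (bideg_pow hφ (s - j)))
    have h3 : 0 + (j * d + (s - j) * d) = s * d := by
      rw [zero_add, ← Nat.add_mul, Nat.add_sub_cancel' hj]
    have h4 : 1 + (j * d + (s - j) * d) = s * d + 1 := by
      rw [← Nat.add_mul, Nat.add_sub_cancel' hj, add_comm]
    rw [h3, h4] at h2
    exact h2
  · intro v t J hJ hdvd
    by_contra hne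
    obtain ⟨m, hm1, hm2⟩ := exists_monomials F v hne
    obtain ⟨h2, _⟩ := hsupp m hm2
    have h5 : (∏ j ∈ J, (X (j, true) : Rg a)) ∣ v t :=
      (Finset.prod_dvd_prod_of_dvd _ _ (fun i _ => hdv i)).trans hdvd
    have h3 : J ⊆ csupp (m t) := by
      intro j hj
      rw [csupp, Finset.mem_filter]
      exact ⟨Finset.mem_univ _, Or.inl (support_of_dvd h5 (hm1 t) hj)⟩
    have h4 := (Finset.card_le_card h3).trans (h2 t)
    omega

lemma dvd_letters {a : ℕ} (z : Bool) (P : Fin a → ℕ) (t : Fin a) (h : 1 ≤ P t) :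
    (X (t, z) : Rg a) ∣ ∏ i, (X (i, z) : Rg a) ^ (P i) := by
  have h1 : (X (t, z) : Rg a) ^ (P t) ∣ ∏ i, (X (i, z) : Rg a) ^ (P i) :=
    Finset.dvd_prod_of_mem (fun i => (X (i, z) : Rg a) ^ (P i)) (Finset.mem_univ t)
  exact (dvd_pow_self _ (by omega)).trans h1

lemma one_letter {a : ℕ} (z : Bool) (N : ℕ) (t : Fin a) :
    (∏ i, (X (i, z) : Rg a) ^ (if i = t then N else 0)) = X (t, z) ^ N := by
  rw [Finset.prod_eq_single t]
  · rw [if_pos rfl]
  · intro i _ hi
    rw [if_neg hi, pow_zero]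
  · intro h
    exact absurd (Finset.mem_univ _) h

/-- First phase. -/
lemma phase1 (hKEY : RowKEY) (hSTEP : RowSTEP) {a s q d N2 : ℕ} (hs : 1 ≤ s) (hq : 1 ≤ q)
    (hd : 18 * s ^ 5 * q ^ 2 ≤ d) (hd1 : 1 ≤ d)
    (hdeg : d + d * (s * q - 1) = q * (s * d))
    (F : MultilinearMap ℂ (fun _ : Fin a => Rg a) ℂ)
    (hsymm : ∀ (σ : Equiv.Perm (Fin a)) (v : Fin a → Rg a), F (fun i => v (σ i)) = F v)
    (hsupp : ∀ m : Fin a → (Fin a × Bool →₀ ℕ), F (fun t => monomial (m t) 1) ≠ 0 →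
      (∀ t, (csupp (m t)).card ≤ s) ∧ (∀ i, ∑ t, m t (i, true) ≤ q * (s * d)) ∧
        ∀ i, ∑ t, m t (i, false) ≤ N2)
    (hF : ∀ f ∈ LT a true ^ (s * d) * LT a false ^ (s * d + 1), F (fun _ => f ^ q) = 0)
    (η : Rg a) (hη : η ∈ LT a false) (ζ : Fin d → Rg a) (hζ : ∀ j, ζ j ∈ LT a false)
    (B : Fin a → Fin a → ℕ) (hB : ∀ t, ∑ i, B t i = d) :
    F (fun t => (η ^ q * (∏ j, ζ j) ^ (s * q - 1) * ∏ i, X (i, false) ^ (B t i)) *
      X (t, true) ^ (q * (s * d))) = 0 := by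
  classical
  have hsT : ∀ m : Fin a → (Fin a × Bool →₀ ℕ), F (fun t => monomial (m t) 1) ≠ 0 →
      (∀ t, (univ.filter (fun i => m t (i, true) ≠ 0)).card ≤ s) ∧
        ∀ i, ∑ t, m t (i, true) ≤ q * (s * d) := by
    intro m hm
    obtain ⟨h1, h2, _⟩ := hsupp m hm
    refine ⟨fun t => (Finset.card_le_card ?_).trans (h1 t), h2⟩
    intro i hi
    rw [Finset.mem_filter] at hi
    rw [csupp, Finset.mem_filter]
    exact ⟨Finset.mem_univ _, Or.inl hi.2⟩
  obtain ⟨n1, n2⟩ := numALG (κ := s * q - 1) (Q := q * (s * d)) (c := d) hs hq hd (Or.inl rfl)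
    (Nat.mul_le_mul_left q (by omega)) le_rfl
  have hQ1 : 1 ≤ q * (s * d) := Nat.mul_pos hq (Nat.mul_pos hs hd1)
  have h2 := iterate hSTEP true F hsT n2 le_rfl d d n1
    (fun t => η ^ q * (∏ j, ζ j) ^ (s * q - 1) * ∏ i, X (i, false) ^ (B t i)) (by
      intro ξ hξ P hP hP1
      have h1 := step0 hKEY hs hq F hsymm hsupp hF η hη ((∏ j, ξ j) * ∏ j, ζ j)
        (Submodule.mul_mem_mul (prod_mem_LT' true ξ hξ) (prod_mem_LT' false ζ hζ))
        (fun t => (∏ i, (X (i, true) : Rg a) ^ (P t i)) *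
          ∏ i, (X (i, false) : Rg a) ^ (B t i))
        (fun t => Submodule.mul_mem_mul (prod_mem_LT true _ (hP t)) (prod_mem_LT false _ (hB t)))
        (fun t => Dvd.dvd.mul_right (dvd_letters true (P t) t (hP1 t)) _)
      rw [← h1]
      congr 1
      funext t
      rw [mul_pow]
      ring) (fun t i => if i = t then q * (s * d) else 0) (by
      intro t
      rw [Finset.sum_ite_eq' univ t (fun _ => q * (s * d)), if_pos (Finset.mem_univ _), hdeg])
    (by
      intro t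
      rw [if_pos rfl]
      exact hQ1)
  rw [← h2]
  congr 1
  funext t
  rw [one_letter]

/-- **Row ALG.** -/
theorem rowALG (hKEY : RowKEY) (hSTEP : RowSTEP) : RowALG := by
  classical
  intro a s q d hs hq hd F hsymm hsupp hF
  have hd1 : 1 ≤ d := by
    refine le_trans ?_ hd
    exact Nat.mul_pos (Nat.mul_pos (by norm_num) (pow_pos (by omega) 5)) (pow_pos (by omega) 2)
  have hsq : 1 ≤ s * q := Nat.mul_pos hs hq
  have hsF : ∀ m : Fin a → (Fin a × Bool →₀ ℕ), F (fun t => monomial (m t) 1) ≠ 0 →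
      (∀ t, (univ.filter (fun i => m t (i, false) ≠ 0)).card ≤ s) ∧
        ∀ i, ∑ t, m t (i, false) ≤ q * (s * d + 1) := by
    intro m hm
    obtain ⟨h1, _, h2⟩ := hsupp m hm
    refine ⟨fun t => (Finset.card_le_card ?_).trans (h1 t), h2⟩
    intro i hi
    rw [Finset.mem_filter] at hi
    rw [csupp, Finset.mem_filter]
    exact ⟨Finset.mem_univ _, Or.inr hi.2⟩
  have hdeg : d + d * (s * q - 1) = q * (s * d) := by
    obtain ⟨w, hw⟩ : ∃ w, s * q = w + 1 := ⟨s * q - 1, by omega⟩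
    have h1 : q * (s * d) = d * (s * q) := by ring
    rw [h1, hw, Nat.add_sub_cancel]
    ring
  -- second phase
  obtain ⟨n3, n4⟩ := numALG (κ := s * q - 1) (Q := q * (s * d + 1)) (c := d) hs hq hd
    (Or.inl rfl) le_rfl le_rfl
  have h2 : ∀ η ∈ LT a false, ∀ E : Fin a → Fin a → ℕ, (∀ t, ∑ i, E t i = q * (s * d)) →
      (∀ t, 1 ≤ E t t) → F (fun t => (η ^ q * X (t, true) ^ (q * (s * d))) *
          ∏ i, X (i, false) ^ (E t i)) = 0 := by
    intro η hη E hE1 hE2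
    refine iterate hSTEP false F hsF n4 le_rfl d d n3
      (fun t => η ^ q * X (t, true) ^ (q * (s * d))) (fun ζ hζ B hB _ => ?_) E
      (fun t => by rw [hE1 t, hdeg]) hE2
    rw [← phase1 hKEY hSTEP hs hq hd hd1 hdeg F hsymm hsupp hF η hη ζ hζ B hB]
    congr 1
    funext t
    ring
  -- last step
  have hcd : d ≤ q * (s * d) := by
    calc d = 1 * (1 * d) := by ring
      _ ≤ q * (s * d) := Nat.mul_le_mul hq (Nat.mul_le_mul_right d hs)
  obtain ⟨n5, n6⟩ := numALG (κ := q) (Q := q * (s * d + 1)) (c := q * (s * d)) hs hq hd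
    (Or.inr rfl) le_rfl hcd
  have h3 := hSTEP a s (q * (s * d)) q (q * (s * d + 1)) _ _ false F hsF
    (fun t => X (t, true) ^ (q * (s * d))) (by
      intro η hη P hP1 hP2
      rw [← h2 η hη P hP1 hP2]
      congr 1
      funext t
      ring) n5 n6 le_rfl (fun t i => if i = t then q * (s * d + 1) else 0) (by
      intro t
      rw [Finset.sum_ite_eq' univ t (fun _ => q * (s * d + 1)), if_pos (Finset.mem_univ _)]
      ring) (by
      intro t
      rw [if_pos rfl]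
      exact Nat.mul_pos hq (by omega))
  rw [← h3]
  congr 1
  funext t
  rw [one_letter]

end Vale.Agent.P181.GP
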