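import Vale.Agent.P181.GP.Top
import Vale.Agent.P181.GP.RowALG
import Vale.Agent.P181.H67.GRowKEY
import Vale.Agent.P181.H67.GRowSTEP
import Vale.Agent.P181.H530.GRowCLS

/-!
P181, graph power map theorem: all rows together.
-/

set_option autoImplicit false

namespace Vale.Agent.P181.GP

/-- **The graph power map theorem.** -/
theorem gpm : RowCLS := H530.GCls.rowCLS (rowALG H67.GKey.rowKEY H67.GStep.rowSTEP)

end Vale.Agent.P181.GP
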