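import Vale.Agent.P181.H49.Rem

/-!
P181, graph power map theorem: literal statements of the rows.
-/

set_option autoImplicit false

namespace Vale.Agent.P181.GP

open Finset MvPolynomial

/-- Letters: a class and a type. -/
abbrev Rg (a : ℕ) := MvPolynomial (Fin a × Bool) ℂ

/-- Span of the letters of a type. -/
noncomputable def LT (a : ℕ) (z : Bool) : Submodule ℂ (Rg a) :=
  Submodule.span ℂ (Set.range fun i : Fin a => (X (i, z) : Rg a))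

/-- Classes of an exponent. -/
noncomputable def csupp {a : ℕ} (m : Fin a × Bool →₀ ℕ) : Finset (Fin a) :=
  univ.filter (fun i => m (i, true) ≠ 0 ∨ m (i, false) ≠ 0)

/-- Row KEY. -/
def RowKEY : Prop := ∀ (A : Type) [CommRing A] [Algebra ℂ A] (a s q : ℕ), 1 ≤ s → 1 ≤ q →
  ∀ (S : Submodule ℂ A) (F : MultilinearMap ℂ (fun _ : Fin a => A) ℂ),
    (∀ (σ : Equiv.Perm (Fin a)) (v : Fin a → A), F (fun i => v (σ i)) = F v) →
    (∀ f ∈ S, F (fun _ => f ^ q) = 0) →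
    ∀ (φ f2 : A) (h : Fin a → A),
      (∀ j, j ≤ s → ∀ w : Fin j → Fin a, f2 * ((∏ i, h (w i)) * φ ^ (s - j)) ∈ S) →
      (∀ (v : Fin a → A) (t : Fin a) (J : Finset (Fin a)), s + 1 ≤ J.card →
        (∏ j ∈ J, h j) ∣ v t → F v = 0) →
      F (fun t => f2 ^ q * (h t * φ ^ (s * q - 1))) = 0

/-- Row STEP (from `H49.removal`). -/
def RowSTEP : Prop := ∀ (a s c κ Q H r : ℕ) (z : Bool)
    (F : MultilinearMap ℂ (fun _ : Fin a => Rg a) ℂ),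
    (∀ m : Fin a → (Fin a × Bool →₀ ℕ), F (fun t => monomial (m t) 1) ≠ 0 →
      (∀ t, (univ.filter (fun i => m t (i, z) ≠ 0)).card ≤ s) ∧ ∀ i, ∑ t, m t (i, z) ≤ Q) →
    ∀ R : Fin a → Rg a,
    (∀ ξ ∈ LT a z, ∀ P : Fin a → Fin a → ℕ, (∀ t, ∑ i, P t i = c) → (∀ t, 1 ≤ P t t) →
      F (fun t => R t * (ξ ^ κ * ∏ i, X (i, z) ^ (P t i))) = 0) →
    s * (r + H + κ) ≤ c + κ → κ + 1 ≤ r → (Q / r) * ((s - 1) * (2 * κ + 1)) ≤ H →
    ∀ E : Fin a → Fin a → ℕ, (∀ t, ∑ i, E t i = c + κ) → (∀ t, 1 ≤ E t t) →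
      F (fun t => R t * ∏ i, X (i, z) ^ (E t i)) = 0

/-- Row ALG (from KEY and STEP). -/
def RowALG : Prop := ∀ (a s q d : ℕ), 1 ≤ s → 1 ≤ q → 18 * s ^ 5 * q ^ 2 ≤ d →
  ∀ F : MultilinearMap ℂ (fun _ : Fin a => Rg a) ℂ,
    (∀ (σ : Equiv.Perm (Fin a)) (v : Fin a → Rg a), F (fun i => v (σ i)) = F v) →
    (∀ m : Fin a → (Fin a × Bool →₀ ℕ), F (fun t => monomial (m t) 1) ≠ 0 →
      (∀ t, (csupp (m t)).card ≤ s) ∧ (∀ i, ∑ t, m t (i, true) ≤ q * (s * d)) ∧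
        ∀ i, ∑ t, m t (i, false) ≤ q * (s * d + 1)) →
    (∀ f ∈ LT a true ^ (s * d) * LT a false ^ (s * d + 1), F (fun _ => f ^ q) = 0) →
    F (fun t => X (t, true) ^ (q * (s * d)) * X (t, false) ^ (q * (s * d + 1))) = 0

/-- Row CLS (from ALG): the graph power map theorem. -/
def RowCLS : Prop := ∀ (a q Q s d : ℕ) (ty : Fin Q → Bool), 1 ≤ s → 1 ≤ q →
  18 * s ^ 5 * q ^ 2 ≤ d →
  (∀ z, (univ.filter (fun κ => ty κ = z)).card = q * (if z then s * d else s * d + 1)) →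
  ∀ W : (Fin a × Fin Q → Fin a) → ℂ,
    (∀ (τ : Equiv.Perm (Fin a)) y, W (fun p => τ (y p)) = W y) →
    (∀ ρ : Fin a × Fin Q → Fin a × Fin q,
      (∀ r z, (univ.filter (fun p => ρ p = r ∧ ty p.2 = z)).card =
        (if z then s * d else s * d + 1)) →
      ∑ σ : Equiv.Perm (Fin a × Fin q), W (fun p => (σ (ρ p)).1) = 0) →
    (∀ y, W y ≠ 0 → ∀ m, (univ.filter (fun i => ∃ κ, y (i, κ) = m)).card ≤ s) →
    W Prod.fst = 0

end Vale.Agent.P181.GP
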