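import Vale.Agent.P181.H89.TopS
import Vale.Agent.P181.GP.Spec

/-!
P181, graph power map theorem: the power map for `b = q a`, assembly and numbers.
-/

set_option autoImplicit false

open scoped TensorProduct

namespace Vale.Agent.P181.GP

open Vale.Agent.P181 Vale.Agent.P181.H280 Vale.Agent.P181.H179 Vale.Agent.P181.T3 Finset
  MvPolynomial Vale.Agent.P181.H89

variable {n : ℕ}

section

variable {a q N Q : ℕ} {l' : Fin N → ℕ}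

/-- A new row of a regrouping which does not vanish consists of pieces of at most `s` rows. -/
lemma clique_pieces {s A X : ℕ} (hX : s * (s + 1) * A ≤ 2 * X)
    {F : MultilinearMap ℂ (fun _ : Fin a => MvPolynomial (Fin n) ℂ) ℂ} {e : Box l' → Fin a}
    (hgam : ∀ S : Finset (Fin a), S.card = s + 1 →
      2 * X ≤ ∑ p ∈ S.offDiag, (CC e p.1 ∩ CC e p.2).card) (hs : 1 ≤ s)
    (lab : Fin a → Fin N → Fin Q)
    (hlab2 : ∀ i j, i ≠ j → A ≤ (CC e i ∩ CC e j).card → ∀ k k', ∃ t ∈ CC e i ∩ CC e j,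
        lab i t = k ∧ lab j t = k')
    (y : Fin a × Fin Q → Fin a) (hVy : VV F l' (fun p => y (e p, lab (e p) p.1)) ≠ 0)
    (m : Fin a) : (univ.filter (fun i => ∃ κ, y (i, κ) = m)).card ≤ s := by
  classical
  by_contra hno
  push Not at hno
  obtain ⟨S, hS1, hS2⟩ := Finset.exists_subset_card_eq (Nat.succ_le_of_lt hno)
  have h1 := hgam S hS2
  have h2 : ∃ p ∈ S.offDiag, A ≤ (CC e p.1 ∩ CC e p.2).card := by
    by_contra hno2
    push Not at hno2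
    have hcard : S.offDiag.card = s * (s + 1) := by
      rw [Finset.offDiag_card, hS2]
      have h4 : s.succ * s.succ = s * (s + 1) + s.succ := by
        rw [Nat.succ_eq_add_one]
        ring
      rw [h4, Nat.add_sub_cancel]
    have hne : S.offDiag.Nonempty := by
      rw [← Finset.card_pos, hcard]
      exact Nat.mul_pos hs (by omega)
    have h3 : ∑ p ∈ S.offDiag, (CC e p.1 ∩ CC e p.2).card < ∑ _p ∈ S.offDiag, A :=
      Finset.sum_lt_sum_of_nonempty hne hno2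
    rw [Finset.sum_const, smul_eq_mul, hcard] at h3
    omega
  obtain ⟨⟨i, j⟩, hp, hA⟩ := h2
  rw [Finset.mem_offDiag] at hp
  obtain ⟨hi, hj, hij⟩ := hp
  simp only at hi hj hij hA
  obtain ⟨κ, hκ⟩ := (Finset.mem_filter.1 (hS1 hi)).2
  obtain ⟨κ', hκ'⟩ := (Finset.mem_filter.1 (hS1 hj)).2
  obtain ⟨t, ht, hl1, hl2⟩ := hlab2 i j hij hA κ κ'
  rw [Finset.mem_inter, mem_CC, mem_CC] at ht
  obtain ⟨⟨⟨t1, u⟩, h4, h5⟩, ⟨⟨t2, v⟩, h6, h7⟩⟩ := ht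
  simp only at h4 h6
  have h46 : t1 = t2 := h4.trans h6.symm
  subst h46
  rw [← h4] at hl1 hl2
  apply hVy
  refine VV_anti F (fun p => y (e p, lab (e p) p.1)) t1 (u := u) (v := v) ?_ ?_
  · intro h8
    apply hij
    rw [← h5, ← h7, h8]
  · simp only
    rw [h5, h7, hl1, hl2, hκ, hκ']

end

/-- Injectivity from the graph power map theorem. -/
theorem injG (hCLS : RowCLS) {a q Q s d w e A X : ℕ} (ty : Fin Q → Bool) (gz : Bool → ℕ)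
    (hs : 1 ≤ s) (hq : 1 ≤ q) (hd : 18 * s ^ 5 * q ^ 2 ≤ d) (ha : s + 1 ≤ a) (hQ1 : 1 ≤ Q)
    (hQ : ∀ z, (univ.filter (fun κ => ty κ = z)).card = q * cS (s * d) z)
    (hah : a = cS (s * d) true * gz true + cS (s * d) false * gz false)
    (hw : 1 ≤ w) (hg : ∀ κ, w ≤ gz (ty κ)) (he : q * a ≤ Q * w + e)
    (hnum : (a : ℝ) ^ 2 * (Q : ℝ) ^ 2 * (1 - 1 / (2 * (Q : ℝ) ^ 2)) ^ (A - 2 * e) < 1)
    (hX : s * (s + 1) * A ≤ 2 * X)
    (lam : Fin n → ℕ)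
    (hlam : (∃ M, (∀ m, lam m ≤ M) ∧ M + X ≤ (s + 1) * (q * a)) ∨
      (a + 1 ≤ n + s ∧ ∀ m : Fin n, (m : ℕ) + s ≤ a → X ≤ lam m))
    (x : Sym[ℂ]^a (Sym[ℂ]^(q * a) (Fin n → ℂ))) (hx : x ∈ hwSpace lam (plethAct a (q * a) n))
    (h0 : powMap a q (Fin n → ℂ) x = 0) : x = 0 := by
  classical
  obtain ⟨l, rfl⟩ := exists_elOf x
  apply elOf_zero_of_fullForm
  by_contra hne
  obtain ⟨N, l', r, hV, -, hgam⟩ := exists_minS hs ha lam hlam l hx hne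
    (fun N l' e => 0)
  have hcol : ∀ t u v, u ≠ v → r ⟨t, u⟩ ≠ r ⟨t, v⟩ := fun t u v huv h =>
    hV (VV_anti _ r t huv h)
  have hrow := VV_card (fullForm_deg l) hV
  have hC : ∀ i, (CC r i).card = ∑ κ, gz (ty κ) := by
    intro i
    rw [CC_card hcol hrow i, sum_szS ty gz hQ, ← hah]
  obtain ⟨lab, hlab1, hlab2, -⟩ := TS.labelS (w := w) (e := e) (s := 1) (A := A) (L := 0)
    (θ := fun _ => 0) (CC r) (fun κ => gz (ty κ)) hQ1 hw hg hC (by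
      rw [sum_szS ty gz hQ, ← hah]
      exact he) (by
      rw [Finset.Icc_eq_empty (by norm_num), Finset.sum_empty, add_zero]
      exact hnum)
  have hpcsize : ∀ i κ, (univ.filter (fun p : Box l' => (r p, lab (r p) p.1) = (i, κ))).card =
      gz (ty κ) := by
    intro i κ
    rw [← hlab1 i κ, ← CC_bij hcol i (fun t => lab i t = κ)]
    congr 1
    apply Finset.filter_congr
    intro p _
    rw [Prod.mk.injEq]
    constructor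
    · rintro ⟨h1, h2⟩
      exact ⟨h1, by rw [← h1]; exact h2⟩
    · rintro ⟨h1, h2⟩
      exact ⟨h1, by rw [h1]; exact h2⟩
  exact hV (hCLS a q Q s d ty hs hq hd hQ (fun y => VV (fullForm l) l' (fun p => y (r p, lab (r p) p.1)))
    (fun τ y => VV_symm (fullForm_symm l) τ (fun p => y (r p, lab (r p) p.1)))
    (fun ρ hρ => rel_piecesS (fun G hG => fullForm_pow l h0 G hG)
      (fun p => (r p, lab (r p) p.1)) ty (cS (s * d)) gz hpcsize hah ρ hρ)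
    (fun y hVy m => clique_pieces hX hgam hs lab hlab2 y hVy m))

/-- Numbers. -/
theorem numG (s q k a M : ℕ) (hs : 1 ≤ s) (hq : 1 ≤ q) (hk : k = s * (18 * s ^ 5 * q ^ 2))
    (ha : 1400 * s ^ 12 * q ^ 4 ≤ a)
    (hM : 14000 * (s : ℝ) ^ 14 * (q : ℝ) ^ 6 * Real.log a ≤ M) :
    (2 * k + 1) * (2 * k + 1) ≤ a ∧ ∃ A : ℕ, s * (s + 1) * A ≤ 2 * M ∧
      (a : ℝ) ^ 2 * ((q * (2 * k + 1) : ℕ) : ℝ) ^ 2 *
        (1 - 1 / (2 * ((q * (2 * k + 1) : ℕ) : ℝ) ^ 2)) ^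
          (A - 2 * (2 * k * (q * (2 * k + 1) + q))) < 1 := by
  have hsR : (1 : ℝ) ≤ s := by exact_mod_cast hs
  have hqR : (1 : ℝ) ≤ q := by exact_mod_cast hq
  have haR : 1400 * (s : ℝ) ^ 12 * (q : ℝ) ^ 4 ≤ a := by exact_mod_cast ha
  have hs6 : (1 : ℝ) ≤ (s : ℝ) ^ 6 := one_le_pow₀ hsR
  have hs12 : (1 : ℝ) ≤ (s : ℝ) ^ 12 := one_le_pow₀ hsR
  have hq2 : (1 : ℝ) ≤ (q : ℝ) ^ 2 := one_le_pow₀ hqR
  have hq4 : (1 : ℝ) ≤ (q : ℝ) ^ 4 := one_le_pow₀ hqR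
  have ha1400 : (1400 : ℝ) ≤ a := by
    have h1 : (1 : ℝ) * 1 ≤ (s : ℝ) ^ 12 * (q : ℝ) ^ 4 :=
      mul_le_mul hs12 hq4 (by norm_num) (by positivity)
    nlinarith
  have ha0 : (0 : ℝ) < a := by linarith
  obtain ⟨L, hL⟩ : ∃ L, L = Real.log a := ⟨_, rfl⟩
  have hL1 : 1 ≤ L := by
    rw [hL, Real.le_log_iff_exp_le ha0]
    have := Real.exp_one_lt_d9
    linarith
  rw [← hL] at hM
  have hkR : (k : ℝ) = 18 * ((s : ℝ) ^ 6 * (q : ℝ) ^ 2) := by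
    rw [hk]
    push_cast
    ring
  have hsq : (1 : ℝ) ≤ (s : ℝ) ^ 6 * (q : ℝ) ^ 2 := one_le_mul_of_one_le_of_one_le hs6 hq2
  have hk37 : 2 * (k : ℝ) + 1 ≤ 37 * ((s : ℝ) ^ 6 * (q : ℝ) ^ 2) := by
    rw [hkR]
    linarith
  have hk0 : (0 : ℝ) ≤ k := Nat.cast_nonneg _
  have hkk : (2 * (k : ℝ) + 1) * (2 * k + 1) ≤ a := by
    refine le_trans (mul_le_mul hk37 hk37 (by positivity) (by positivity)) (le_trans ?_ haR)
    have h1 : 37 * ((s : ℝ) ^ 6 * (q : ℝ) ^ 2) * (37 * ((s : ℝ) ^ 6 * (q : ℝ) ^ 2)) =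
        1369 * ((s : ℝ) ^ 12 * (q : ℝ) ^ 4) := by ring
    have h2 : 1400 * (s : ℝ) ^ 12 * (q : ℝ) ^ 4 = 1400 * ((s : ℝ) ^ 12 * (q : ℝ) ^ 4) := by ring
    rw [h1, h2]
    have : (0 : ℝ) ≤ (s : ℝ) ^ 12 * (q : ℝ) ^ 4 := by positivity
    linarith
  refine ⟨by exact_mod_cast hkk, 2 * M / (s * (s + 1)), Nat.mul_div_le _ _, ?_⟩
  obtain ⟨Q, hQ⟩ : ∃ Q, Q = q * (2 * k + 1) := ⟨_, rfl⟩
  rw [← hQ]
  have hQR : (Q : ℝ) = q * (2 * k + 1) := by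
    rw [hQ]
    push_cast
    ring
  have hQ1 : (1 : ℝ) ≤ Q := by
    rw [hQR]
    exact one_le_mul_of_one_le_of_one_le hqR (by linarith)
  have hQ37 : (Q : ℝ) ≤ 37 * ((s : ℝ) ^ 6 * (q : ℝ) ^ 3) := by
    rw [hQR]
    calc (q : ℝ) * (2 * k + 1) ≤ q * (37 * ((s : ℝ) ^ 6 * (q : ℝ) ^ 2)) :=
          mul_le_mul_of_nonneg_left hk37 (by linarith)
      _ = _ := by ring
  have hQa : (Q : ℝ) ≤ a := by
    refine hQ37.trans (le_trans ?_ haR)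
    have h1 : (s : ℝ) ^ 6 * (q : ℝ) ^ 3 ≤ (s : ℝ) ^ 12 * (q : ℝ) ^ 4 :=
      mul_le_mul (pow_le_pow_right₀ hsR (by norm_num)) (pow_le_pow_right₀ hqR (by norm_num))
        (by positivity) (by positivity)
    have : (0 : ℝ) ≤ (s : ℝ) ^ 12 * (q : ℝ) ^ 4 := by positivity
    linarith
  have hZ : (1 : ℝ) ≤ (s : ℝ) ^ 12 * (q : ℝ) ^ 6 :=
    one_le_mul_of_one_le_of_one_le hs12 (one_le_pow₀ hqR)
  have hQQ : (Q : ℝ) ^ 2 ≤ 1369 * ((s : ℝ) ^ 12 * (q : ℝ) ^ 6) := by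
    calc (Q : ℝ) ^ 2 ≤ (37 * ((s : ℝ) ^ 6 * (q : ℝ) ^ 3)) ^ 2 :=
          pow_le_pow_left₀ (by linarith) hQ37 2
      _ = _ := by ring
  -- the error
  obtain ⟨E, hE⟩ : ∃ E, E = 2 * (2 * k * (Q + q)) := ⟨_, rfl⟩
  rw [← hE]
  have hER : (E : ℝ) ≤ 2736 * ((s : ℝ) ^ 12 * (q : ℝ) ^ 6) := by
    have h1 : (E : ℝ) = 4 * k * (Q + q) := by
      rw [hE]
      push_cast
      ring
    have h2 : (Q : ℝ) + q ≤ 38 * ((s : ℝ) ^ 6 * (q : ℝ) ^ 3) := by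
      have h3 : (1 : ℝ) * q ≤ (s : ℝ) ^ 6 * (q : ℝ) ^ 3 :=
        mul_le_mul hs6 (by
          calc (q : ℝ) = q ^ 1 := (pow_one _).symm
            _ ≤ _ := pow_le_pow_right₀ hqR (by norm_num)) (by linarith) (by positivity)
      linarith
    rw [h1, hkR]
    calc 4 * (18 * ((s : ℝ) ^ 6 * (q : ℝ) ^ 2)) * ((Q : ℝ) + q) ≤
        4 * (18 * ((s : ℝ) ^ 6 * (q : ℝ) ^ 2)) * (38 * ((s : ℝ) ^ 6 * (q : ℝ) ^ 3)) :=
          mul_le_mul_of_nonneg_left h2 (by positivity)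
      _ = 2736 * ((s : ℝ) ^ 12 * (q : ℝ) ^ 5) := by ring
      _ ≤ _ := by
        apply mul_le_mul_of_nonneg_left _ (by norm_num)
        exact mul_le_mul_of_nonneg_left (pow_le_pow_right₀ hqR (by norm_num)) (by positivity)
  -- the threshold
  obtain ⟨A, hA⟩ : ∃ A, A = 2 * M / (s * (s + 1)) := ⟨_, rfl⟩
  rw [← hA]
  have hAR : 14000 * ((s : ℝ) ^ 12 * (q : ℝ) ^ 6) * L < A + 1 := by
    have h1 : 2 * M < s * (s + 1) * (A + 1) := by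
      rw [hA]
      exact Nat.lt_mul_div_succ _ (Nat.mul_pos hs (by omega))
    have h2 : 2 * (M : ℝ) < s * (s + 1) * (A + 1) := by exact_mod_cast h1
    have h3 : (s : ℝ) * (s + 1) ≤ 2 * (s : ℝ) ^ 2 := by nlinarith
    have h4 : 2 * (M : ℝ) < 2 * (s : ℝ) ^ 2 * (A + 1) :=
      lt_of_lt_of_le h2 (mul_le_mul_of_nonneg_right h3 (by positivity))
    have h5 : (s : ℝ) ^ 2 * (14000 * ((s : ℝ) ^ 12 * (q : ℝ) ^ 6) * L) ≤ M := by
      refine le_trans (le_of_eq ?_) hM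
      ring
    have h6 : (s : ℝ) ^ 2 * (14000 * ((s : ℝ) ^ 12 * (q : ℝ) ^ 6) * L) < (s : ℝ) ^ 2 * (A + 1) := by
      linarith
    exact lt_of_mul_lt_mul_left h6 (by positivity)
  have hZL : (s : ℝ) ^ 12 * (q : ℝ) ^ 6 ≤ (s : ℝ) ^ 12 * (q : ℝ) ^ 6 * L := by
    calc (s : ℝ) ^ 12 * (q : ℝ) ^ 6 = (s : ℝ) ^ 12 * (q : ℝ) ^ 6 * 1 := (mul_one _).symm
      _ ≤ _ := mul_le_mul_of_nonneg_left hL1 (by positivity)
  have hZ1 : 1 ≤ (s : ℝ) ^ 12 * (q : ℝ) ^ 6 * L := hZ.trans hZL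
  have hEA : (E : ℝ) ≤ A := by linarith
  have hEA' : E ≤ A := by exact_mod_cast hEA
  have hgap : 8 * (Q : ℝ) ^ 2 * L < ((A - E : ℕ) : ℝ) := by
    rw [Nat.cast_sub hEA']
    have h1 : 8 * (Q : ℝ) ^ 2 * L ≤ 8 * (1369 * ((s : ℝ) ^ 12 * (q : ℝ) ^ 6)) * L :=
      mul_le_mul_of_nonneg_right (by linarith) (by linarith)
    linarith
  have hQ2 : 0 < 2 * (Q : ℝ) ^ 2 := by positivity
  have hx1 : 1 - 1 / (2 * (Q : ℝ) ^ 2) ≤ Real.exp (-(1 / (2 * (Q : ℝ) ^ 2))) := by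
    have := Real.add_one_le_exp (-(1 / (2 * (Q : ℝ) ^ 2)))
    linarith
  have hx0 : 0 ≤ 1 - 1 / (2 * (Q : ℝ) ^ 2) := by
    have h1 : 1 / (2 * (Q : ℝ) ^ 2) ≤ 1 := by
      rw [div_le_one hQ2]
      have : (1 : ℝ) ≤ (Q : ℝ) ^ 2 := one_le_pow₀ hQ1
      linarith
    linarith
  have h1 : (1 - 1 / (2 * (Q : ℝ) ^ 2)) ^ (A - E) ≤
      Real.exp (-(((A - E : ℕ) : ℝ) / (2 * (Q : ℝ) ^ 2))) := by
    calc (1 - 1 / (2 * (Q : ℝ) ^ 2)) ^ (A - E) ≤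
          Real.exp (-(1 / (2 * (Q : ℝ) ^ 2))) ^ (A - E) := pow_le_pow_left₀ hx0 hx1 _
      _ = _ := by
          rw [← Real.exp_nat_mul]
          congr 1
          ring
  have h2 : Real.exp (-(((A - E : ℕ) : ℝ) / (2 * (Q : ℝ) ^ 2))) < Real.exp (-(4 * L)) := by
    rw [Real.exp_lt_exp, neg_lt_neg_iff, lt_div_iff₀ hQ2]
    linarith
  have h3 : (a : ℝ) ^ 2 * (Q : ℝ) ^ 2 ≤ Real.exp (4 * L) := by
    have h7 : Real.exp (4 * L) = (a : ℝ) ^ 4 := by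
      rw [hL, mul_comm, Real.exp_mul, Real.exp_log ha0]
      norm_cast
    rw [h7]
    calc (a : ℝ) ^ 2 * (Q : ℝ) ^ 2 ≤ (a : ℝ) ^ 2 * (a : ℝ) ^ 2 :=
          mul_le_mul_of_nonneg_left (pow_le_pow_left₀ (by linarith) hQa 2) (by positivity)
      _ = _ := by ring
  calc (a : ℝ) ^ 2 * (Q : ℝ) ^ 2 * (1 - 1 / (2 * (Q : ℝ) ^ 2)) ^ (A - E) ≤
        Real.exp (4 * L) * (1 - 1 / (2 * (Q : ℝ) ^ 2)) ^ (A - E) :=
          mul_le_mul_of_nonneg_right h3 (pow_nonneg hx0 _)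
    _ < Real.exp (4 * L) * Real.exp (-(4 * L)) :=
          mul_lt_mul_of_pos_left (lt_of_le_of_lt h1 h2) (Real.exp_pos _)
    _ = 1 := by rw [← Real.exp_add, add_neg_cancel, Real.exp_zero]

/-- **The power map, every number of rows, `M ≥ C s ^ 14 q ^ 6 log a`.** -/
theorem powMapG (hCLS : RowCLS) {s q a M n : ℕ} (hs : 1 ≤ s) (hq : 1 ≤ q) (hn : 1 ≤ n)
    (ha : 1400 * s ^ 12 * q ^ 4 ≤ a)
    (hM : 14000 * (s : ℝ) ^ 14 * (q : ℝ) ^ 6 * Real.log a ≤ M)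
    (lam : Fin n → ℕ)
    (hlam : (∀ m, lam m + M ≤ (s + 1) * (q * a)) ∨
      (a + 1 ≤ n + s ∧ ∀ m : Fin n, (m : ℕ) + s ≤ a → M ≤ lam m))
    (x : Sym[ℂ]^a (Sym[ℂ]^(q * a) (Fin n → ℂ))) (hx : x ∈ hwSpace lam (plethAct a (q * a) n))
    (h0 : powMap a q (Fin n → ℂ) x = 0) : x = 0 := by
  obtain ⟨k, hk⟩ : ∃ k, k = s * (18 * s ^ 5 * q ^ 2) := ⟨_, rfl⟩
  have hk1 : 1 ≤ k := by
    rw [hk]
    exact Nat.mul_pos hs (Nat.mul_pos (Nat.mul_pos (by norm_num) (pow_pos (by omega) 5))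
      (pow_pos (by omega) 2))
  have hsk : s ≤ k := by
    rw [hk]
    exact Nat.le_mul_of_pos_right s (Nat.mul_pos (Nat.mul_pos (by norm_num)
      (pow_pos (by omega) 5)) (pow_pos (by omega) 2))
  have hQ1 : 1 ≤ q * (2 * k + 1) := Nat.mul_pos hq (by omega)
  obtain ⟨ha2, A, hA1, hA2⟩ := numG s q k a M hs hq hk ha hM
  obtain ⟨g, g', w, hag, hw, hg, hg', he⟩ := sizesS k q a ha2
  have ha3 : s + 1 ≤ a := by
    have h3 : (2 * k + 1) * 1 ≤ (2 * k + 1) * (2 * k + 1) := Nat.mul_le_mul_left _ (by omega)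
    omega
  subst hk
  refine injG hCLS (s := s) (d := 18 * s ^ 5 * q ^ 2) (w := w) (X := M) (A := A)
    (tyS _ q) (gS g g') hs hq le_rfl ha3 hQ1
    (card_tyS _ q) (by rw [cS, cS, gS, gS, if_pos rfl, if_pos rfl, if_neg Bool.false_ne_true,
      if_neg Bool.false_ne_true]; exact hag) hw (fun κ => by
      rw [gS]
      split_ifs
      · exact hg
      · exact hg') he hA2 hA1 lam ?_ x hx h0
  rcases hlam with h | h
  · left
    have h1 := h ⟨0, by omega⟩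
    refine ⟨(s + 1) * (q * a) - M, fun m => ?_, ?_⟩
    · have := h m
      omega
    · omega
  · exact Or.inr h

/-- Multiplicities. -/
theorem multG (hCLS : RowCLS) {s q a M n : ℕ} (hs : 1 ≤ s) (hq : 1 ≤ q) (hn : 1 ≤ n)
    (ha : 1400 * s ^ 12 * q ^ 4 ≤ a)
    (hM : 14000 * (s : ℝ) ^ 14 * (q : ℝ) ^ 6 * Real.log a ≤ M)
    (lam : Fin n → ℕ)
    (hlam : (∀ m, lam m + M ≤ (s + 1) * (q * a)) ∨
      (a + 1 ≤ n + s ∧ ∀ m : Fin n, (m : ℕ) + s ≤ a → M ≤ lam m)) :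
    plethMult a (q * a) n lam ≤ plethMult (q * a) a n lam :=
  finrank_le_of_inj (powMap a q (Fin n → ℂ)) _ _ (fun x hx => powMap_hwSpace lam x hx)
    (fun x hx h0 => powMapG hCLS hs hq hn ha hM lam hlam x hx h0)

/-- Propagation in `b`. -/
theorem propG (hCLS : RowCLS) {s q a M n k : ℕ} (hs : 1 ≤ s) (hq : 1 ≤ q)
    (ha : 1400 * s ^ 12 * q ^ 4 ≤ a)
    (hM : 14000 * (s : ℝ) ^ 14 * (q : ℝ) ^ 6 * Real.log a ≤ M)
    (lam : Fin (n + 1) → ℕ) (hlam : ∀ i, i ≠ 0 → lam i ≤ q * a)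
    (h0 : (lam 0 + M ≤ (s + 1) * (q * a) + a * k ∧ ∀ i, i ≠ 0 → lam i + M ≤ (s + 1) * (q * a)) ∨
      (a ≤ n + s ∧ a * k + M ≤ lam 0 ∧
        ∀ i : Fin (n + 1), i ≠ 0 → (i : ℕ) + s ≤ a → M ≤ lam i)) :
    plethMult a (q * a + k) (n + 1) lam ≤ plethMult (q * a + k) a (n + 1) lam := by
  apply reduction a (q * a) k lam hlam
  intro c hc
  apply multG hCLS hs hq (by omega) ha hM
  rcases h0 with ⟨h0, h1⟩ | ⟨han, h0, h1⟩
  · left
    intro m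
    by_cases hm : m = 0
    · subst hm
      rw [Function.update_self]
      omega
    · rw [Function.update_of_ne hm]
      exact h1 m hm
  · right
    refine ⟨by omega, fun m hma => ?_⟩
    by_cases hm : m = 0
    · subst hm
      rw [Function.update_self]
      omega
    · rw [Function.update_of_ne hm]
      exact h1 m hm hma

end Vale.Agent.P181.GP
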