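import Vale.Agent.P181.GP.Main
import Vale.Agent.P181.H626.Top23
import Vale.Agent.P181.H676.Rate
import Vale.Agent.P181.H676.Num15

/-!
P181, graph power map theorem: all partitions with few long rows, and the proportion of the
partitions which are covered.
-/

set_option autoImplicit false

open scoped TensorProduct

namespace Vale.Agent.P181.GP

open Vale.Agent.P181 Vale.Agent.P181.H280 Vale.Agent.P181.H179 Vale.Agent.P181.H676 Filter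

variable {n : ℕ}

theorem top_main (hCLS : RowCLS) {s q a M : ℕ} (hs : 1 ≤ s) (hq : 1 ≤ q)
    (hM : (1400 * s ^ 12 * q ^ 4 ≤ a ∧
        14000 * (s : ℝ) ^ 14 * (q : ℝ) ^ 6 * Real.log a ≤ M) ∨
      (s = 2 ∧ 7 ≤ a ∧ 8000 * (q : ℝ) ^ 4 * Real.log (10 * a * q) ≤ M))
    (lam : Fin (n + 1) → ℕ)
    (hlam : (∀ m, lam m + M ≤ (s + 1) * (q * a)) ∨
      (a ≤ n + s ∧ ∀ m : Fin (n + 1), (m : ℕ) + s ≤ a → M ≤ lam m)) :
    InjOnHW (powMap a q (Fin (n + 1) → ℂ)) lam ∧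
      plethMult a (q * a) (n + 1) lam ≤ plethMult (q * a) a (n + 1) lam := by
  rcases hM with ⟨ha, hM⟩ | ⟨rfl, ha, hM⟩
  · have hlam' : (∀ m, lam m + M ≤ (s + 1) * (q * a)) ∨
        (a + 1 ≤ n + 1 + s ∧ ∀ m : Fin (n + 1), (m : ℕ) + s ≤ a → M ≤ lam m) := by
      rcases hlam with h | ⟨h1, h2⟩
      · exact Or.inl h
      · exact Or.inr ⟨by omega, h2⟩
    exact ⟨fun x hx h0 => powMapG hCLS hs hq (by omega) ha hM lam hlam' x hx h0,
      multG hCLS hs hq (by omega) ha hM lam hlam'⟩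
  · have hlam' : (∀ m, lam m + M ≤ 3 * (q * a)) ∨
        (a ≤ n + 2 ∧ ∀ m : Fin (n + 1), (m : ℕ) + 1 < a → M ≤ lam m) := by
      rcases hlam with h | ⟨h1, h2⟩
      · exact Or.inl h
      · exact Or.inr ⟨h1, fun m hm => h2 m (by omega)⟩
    exact ⟨fun x hx h0 => T3.powMap_three ha hq hM lam hlam' x hx h0,
      T3.three ha hq hM lam hlam'⟩

theorem top_prop (hCLS : RowCLS) {s q a M : ℕ} (hs : 1 ≤ s) (hq : 1 ≤ q)
    (hM : (1400 * s ^ 12 * q ^ 4 ≤ a ∧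
        14000 * (s : ℝ) ^ 14 * (q : ℝ) ^ 6 * Real.log a ≤ M) ∨
      (s = 2 ∧ 7 ≤ a ∧ 8000 * (q : ℝ) ^ 4 * Real.log (10 * a * q) ≤ M)) (k : ℕ)
    (lam : Fin (n + 1) → ℕ) (hlam : ∀ i, i ≠ 0 → lam i ≤ q * a)
    (h0 : (lam 0 + M ≤ (s + 1) * (q * a) + a * k ∧ ∀ i, i ≠ 0 → lam i + M ≤ (s + 1) * (q * a)) ∨
        (a ≤ n + s ∧ a * k + M ≤ lam 0 ∧
          ∀ i : Fin (n + 1), i ≠ 0 → (i : ℕ) + s ≤ a → M ≤ lam i)) :
    plethMult a (q * a + k) (n + 1) lam ≤ plethMult (q * a + k) a (n + 1) lam := by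
  rcases hM with ⟨ha, hM⟩ | ⟨rfl, ha, hM⟩
  · exact propG hCLS hs hq ha hM lam hlam h0
  · refine T3.three_prop ha hq hM k lam hlam ?_
    rcases h0 with h | ⟨h1, h2, h3⟩
    · exact Or.inl h
    · exact Or.inr ⟨h1, h2, fun m hm0 hm => h3 m hm0 (by omega)⟩

/-- The partitions of `N` with at most `a` parts. -/
lemma coe_Lam (a N : ℕ) : {lam : Fin a → ℕ | Antitone lam ∧ ∑ i, lam i = N} =
    ((Lam a N : Finset (Fin a → ℕ)) : Set (Fin a → ℕ)) := by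
  ext lam
  rw [Set.mem_setOf_eq, Finset.mem_coe, mem_Lam]

/-- All but a small proportion of the partitions. -/
theorem almost_count (hCLS : RowCLS) {s q a : ℕ} (hs : 1 ≤ s) (hq : 1 ≤ q) (ha : 3 ≤ a)
    (h : 14000 * (s : ℝ) ^ 14 * (q : ℝ) ^ 5 * Real.log a ≤ a) :
    {lam : Fin a → ℕ | Antitone lam ∧ ∑ i, lam i = a * (q * a) ∧
      ¬ (InjOnHW (powMap a q (Fin a → ℂ)) lam ∧
        plethMult a (q * a) a lam ≤ plethMult (q * a) a a lam)}.ncard * 2 ^ (s / 4) ≤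
      (a * (q * a) + 1) *
        {lam : Fin a → ℕ | Antitone lam ∧ ∑ i, lam i = a * (q * a)}.ncard := by
  classical
  have haR : (3 : ℝ) ≤ a := by exact_mod_cast ha
  have hsR : (1 : ℝ) ≤ s := by exact_mod_cast hs
  have hqR : (1 : ℝ) ≤ q := by exact_mod_cast hq
  have hlog : 1 ≤ Real.log a := by
    rw [Real.le_log_iff_exp_le (by linarith)]
    have := Real.exp_one_lt_d9
    linarith
  have ha1 : 1 ≤ a := by omega
  have ha2 : 1400 * s ^ 12 * q ^ 4 ≤ a := by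
    have h1 : (s : ℝ) ^ 12 ≤ (s : ℝ) ^ 14 := pow_le_pow_right₀ hsR (by norm_num)
    have h2 : (q : ℝ) ^ 4 ≤ (q : ℝ) ^ 5 := pow_le_pow_right₀ hqR (by norm_num)
    have h3 : (s : ℝ) ^ 12 * (q : ℝ) ^ 4 ≤ (s : ℝ) ^ 14 * (q : ℝ) ^ 5 :=
      mul_le_mul h1 h2 (by positivity) (by positivity)
    have h4 : 14000 * (s : ℝ) ^ 14 * (q : ℝ) ^ 5 * 1 ≤
        14000 * (s : ℝ) ^ 14 * (q : ℝ) ^ 5 * Real.log a :=
      mul_le_mul_of_nonneg_left hlog (by positivity)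
    have h5 : 0 ≤ (s : ℝ) ^ 12 * (q : ℝ) ^ 4 := by positivity
    have h6 : ((1400 * s ^ 12 * q ^ 4 : ℕ) : ℝ) ≤ a := by
      push_cast
      nlinarith
    exact_mod_cast h6
  have hM : 14000 * (s : ℝ) ^ 14 * (q : ℝ) ^ 6 * Real.log a ≤ ((q * a : ℕ) : ℝ) := by
    push_cast
    calc 14000 * (s : ℝ) ^ 14 * (q : ℝ) ^ 6 * Real.log a =
        q * (14000 * (s : ℝ) ^ 14 * (q : ℝ) ^ 5 * Real.log a) := by ring
      _ ≤ _ := mul_le_mul_of_nonneg_left h (by linarith)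
  have hb : 1 ≤ q * a := Nat.mul_pos hq ha1
  have hab : a ≤ 4 * (q * a) := by
    have h1 : 1 * a ≤ q * a := Nat.mul_le_mul_right a hq
    omega
  have h1 := bad_le (a := a) (b := q * a) (s := s) hb hab
  have h2 : {lam : Fin a → ℕ | Antitone lam ∧ ∑ i, lam i = a * (q * a) ∧
      ¬ (InjOnHW (powMap a q (Fin a → ℂ)) lam ∧
        plethMult a (q * a) a lam ≤ plethMult (q * a) a a lam)} ⊆
      (((Lam a (a * (q * a))).filter fun l => ¬ ∀ i, l i ≤ s * (q * a) :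
        Finset (Fin a → ℕ)) : Set (Fin a → ℕ)) := by
    rintro lam ⟨h3, h4, h5⟩
    rw [Finset.mem_coe, Finset.mem_filter, mem_Lam]
    refine ⟨⟨h3, h4⟩, fun h6 => h5 ?_⟩
    have h7 : (∀ m, lam m + q * a ≤ (s + 1) * (q * a)) ∨
        (a + 1 ≤ a + s ∧ ∀ m : Fin a, (m : ℕ) + s ≤ a → q * a ≤ lam m) := by
      left
      intro m
      have := h6 m
      calc lam m + q * a ≤ s * (q * a) + q * a := Nat.add_le_add_right this _
        _ = (s + 1) * (q * a) := by ring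
    exact ⟨fun x hx h0 => powMapG hCLS hs hq ha1 ha2 hM lam h7 x hx h0,
      multG hCLS hs hq ha1 ha2 hM lam h7⟩
  have h3 := Set.ncard_le_ncard h2 (Finset.finite_toSet _)
  rw [Set.ncard_coe_finset] at h3
  rw [coe_Lam, Set.ncard_coe_finset]
  exact (Nat.mul_le_mul_right _ h3).trans h1

/-- **Almost all partitions.** -/
theorem almost_all (hCLS : RowCLS) {q : ℕ} (hq : 1 ≤ q) : ∀ᶠ a : ℕ in atTop,
    ({lam : Fin a → ℕ | Antitone lam ∧ ∑ i, lam i = a * (q * a) ∧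
      ¬ (InjOnHW (powMap a q (Fin a → ℂ)) lam ∧
        plethMult a (q * a) a lam ≤ plethMult (q * a) a a lam)}.ncard : ℝ) ≤
      Real.exp (-(a : ℝ) ^ ((1 : ℝ) / 15)) *
        ({lam : Fin a → ℕ | Antitone lam ∧ ∑ i, lam i = a * (q * a)}.ncard : ℝ) := by
  filter_upwards [num15 q hq, eventually_ge_atTop 3] with a ha ha3
  obtain ⟨s, hs, h1, h2, h3⟩ := ha
  have hqR : (1 : ℝ) ≤ q := by exact_mod_cast hq
  have haR : (3 : ℝ) ≤ a := by exact_mod_cast ha3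
  have hlog : 0 ≤ Real.log a := Real.log_nonneg (by linarith)
  have h4 : 14000 * (s : ℝ) ^ 14 * (q : ℝ) ^ 5 * Real.log a ≤ a := by
    have h5 : 0 < (q : ℝ) ^ 2 * a := by positivity
    have h6 : ((q : ℝ) ^ 2 * a) * ((10 : ℝ) ^ 6 * (s : ℝ) ^ 14 * (q : ℝ) ^ 7 * Real.log a) ≤
        ((q : ℝ) ^ 2 * a) * a := by
      push_cast at h2
      calc ((q : ℝ) ^ 2 * a) * ((10 : ℝ) ^ 6 * (s : ℝ) ^ 14 * (q : ℝ) ^ 7 * Real.log a) =
          (10 : ℝ) ^ 6 * (s : ℝ) ^ 14 * (q : ℝ) ^ 9 * a * Real.log a := by ring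
        _ ≤ ((q : ℝ) * a) ^ 2 := h2
        _ = _ := by ring
    have h7 := le_of_mul_le_mul_left h6 h5
    refine le_trans ?_ h7
    have h8 : (q : ℝ) ^ 5 ≤ (q : ℝ) ^ 7 := pow_le_pow_right₀ hqR (by norm_num)
    have h9 : 14000 * (s : ℝ) ^ 14 * (q : ℝ) ^ 5 ≤ (10 : ℝ) ^ 6 * (s : ℝ) ^ 14 * (q : ℝ) ^ 7 :=
      mul_le_mul (mul_le_mul_of_nonneg_right (by norm_num) (by positivity)) h8 (by positivity)
        (by positivity)
    exact mul_le_mul_of_nonneg_right h9 hlog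
  have h4 := almost_count hCLS (by omega) hq ha3 h4
  obtain ⟨B, hB⟩ : ∃ B, B = {lam : Fin a → ℕ | Antitone lam ∧ ∑ i, lam i = a * (q * a) ∧
      ¬ (InjOnHW (powMap a q (Fin a → ℂ)) lam ∧
        plethMult a (q * a) a lam ≤ plethMult (q * a) a a lam)}.ncard := ⟨_, rfl⟩
  obtain ⟨A, hA⟩ : ∃ A, A = {lam : Fin a → ℕ | Antitone lam ∧
      ∑ i, lam i = a * (q * a)}.ncard := ⟨_, rfl⟩
  rw [← hB, ← hA] at h4
  rw [← hB, ← hA]
  have h5 : (B : ℝ) * 2 ^ (s / 4) ≤ ((a * (q * a) + 1 : ℕ) : ℝ) * A := by exact_mod_cast h4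
  have hN : (0 : ℝ) < ((a * (q * a) + 1 : ℕ) : ℝ) := by positivity
  have hE : 0 < Real.exp ((a : ℝ) ^ ((1 : ℝ) / 15)) := Real.exp_pos _
  have h6 : (B : ℝ) * (((a * (q * a) + 1 : ℕ) : ℝ) * Real.exp ((a : ℝ) ^ ((1 : ℝ) / 15))) ≤
      (B : ℝ) * 2 ^ (s / 4) := mul_le_mul_of_nonneg_left h3 (Nat.cast_nonneg _)
  have h7 : ((a * (q * a) + 1 : ℕ) : ℝ) * ((B : ℝ) * Real.exp ((a : ℝ) ^ ((1 : ℝ) / 15))) ≤
      ((a * (q * a) + 1 : ℕ) : ℝ) * A := by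
    refine le_trans (le_of_eq ?_) (h6.trans h5)
    ring
  have h8 := le_of_mul_le_mul_left h7 hN
  rw [Real.exp_neg, inv_mul_eq_div, le_div_iff₀ hE]
  exact h8

end Vale.Agent.P181.GP
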